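import Mathlib

/-!
# P097, row A4.6-WND, part 1: abstract lemmas

`ident_convex`: identity theorem on a convex open set of `ℂ × ℂ` (along complex lines).
`root_bounds`, `diff_root`: a uniformly simple root, its uniqueness and its dependence on
parameters (only Fréchet differentiability in the parameters is used).
-/

set_option linter.all false

open Complex Metric Filter Topology Set

namespace Vale.Agent.P097.H686

theorem ident_convex {U : Set (ℂ × ℂ)} (hU : IsOpen U) (hc : Convex ℝ U) {f g : ℂ × ℂ → ℂ}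
    (hf : DifferentiableOn ℂ f U) (hg : DifferentiableOn ℂ g U) {z₀ : ℂ × ℂ} (h0 : z₀ ∈ U)
    (he : f =ᶠ[𝓝 z₀] g) : EqOn f g U := by
  intro z hz
  set L : ℂ → ℂ × ℂ := fun t => z₀ + t • (z - z₀) with hL
  have hLd : Differentiable ℂ L := by
    rw [hL]; fun_prop
  have hPo : IsOpen (L ⁻¹' U) := hU.preimage hLd.continuous
  have hPc : Convex ℝ (L ⁻¹' U) := by
    intro s hs t ht a c ha hc' hac
    have h1 := hc hs ht ha hc' hac
    have e : L (a • s + c • t) = a • L s + c • L t := by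
      have hac' : (a : ℂ) + c = 1 := by exact_mod_cast hac
      ext
      · simp only [hL, Prod.fst_add, Prod.smul_fst, Prod.fst_sub, smul_eq_mul, real_smul]
        linear_combination (-z₀.1) * hac'
      · simp only [hL, Prod.snd_add, Prod.smul_snd, Prod.snd_sub, smul_eq_mul, real_smul]
        linear_combination (-z₀.2) * hac'
    show L (a • s + c • t) ∈ U
    rw [e]; exact h1
  have e0 : L 0 = z₀ := by simp [hL]
  have e1 : L 1 = z := by simp [hL]
  have h0P : (0 : ℂ) ∈ L ⁻¹' U := by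
    show L 0 ∈ U
    rw [e0]; exact h0
  have h1P : (1 : ℂ) ∈ L ⁻¹' U := by
    show L 1 ∈ U
    rw [e1]; exact hz
  have hfL : DifferentiableOn ℂ (f ∘ L) (L ⁻¹' U) :=
    hf.comp hLd.differentiableOn (fun t ht => ht)
  have hgL : DifferentiableOn ℂ (g ∘ L) (L ⁻¹' U) :=
    hg.comp hLd.differentiableOn (fun t ht => ht)
  have hev : (f ∘ L) =ᶠ[𝓝 (0 : ℂ)] (g ∘ L) := by
    have h2 : Tendsto L (𝓝 0) (𝓝 z₀) := by
      have := hLd.continuous.tendsto 0
      rwa [e0] at this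
    exact h2.eventually he
  have h3 := (hfL.analyticOnNhd hPo).eqOn_of_preconnected_of_eventuallyEq
    (hgL.analyticOnNhd hPo) hPc.isPreconnected h0P hev h1P
  simpa only [Function.comp_apply, e1] using h3

/-- a uniformly simple root: lower bound for differences and existence of the root -/
theorem root_bounds {f : ℂ → ℂ} {x c : ℂ} {ε m : ℝ} (hε : 0 < ε) (hm : 0 < m)
    (hf : ∀ ξ ∈ closedBall x ε, DifferentiableAt ℂ f ξ) (hc : m ≤ ‖c‖)
    (hd : ∀ ξ ∈ closedBall x ε, ‖deriv f ξ - c‖ ≤ m / 2) (h0 : ‖f x‖ < m * ε / 4) :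
    (∀ ξ ∈ closedBall x ε, ∀ η ∈ closedBall x ε, m / 2 * ‖ξ - η‖ ≤ ‖f ξ - f η‖) ∧
    ∃ ξ ∈ ball x ε, f ξ = 0 := by
  have hlow : ∀ ξ ∈ closedBall x ε, ∀ η ∈ closedBall x ε, m / 2 * ‖ξ - η‖ ≤ ‖f ξ - f η‖ := by
    intro ξ hξ η hη
    have hg1 : ∀ y ∈ closedBall x ε, DifferentiableAt ℂ (fun t => f t - c * t) y :=
      fun y hy => (hf y hy).sub (differentiableAt_id.const_mul c)
    have hg2 : ∀ y ∈ closedBall x ε, ‖deriv (fun t => f t - c * t) y‖ ≤ m / 2 := by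
      intro y hy
      have h1 : HasDerivAt (fun t => f t - c * t) (deriv f y - c * 1) y :=
        (hf y hy).hasDerivAt.sub ((hasDerivAt_id y).const_mul c)
      rw [h1.deriv, mul_one]
      exact hd y hy
    have h2 := (convex_closedBall x ε).norm_image_sub_le_of_norm_deriv_le hg1 hg2 hη hξ
    have h3 : f ξ - f η = c * (ξ - η) + ((f ξ - c * ξ) - (f η - c * η)) := by ring
    have h4 : ‖c * (ξ - η)‖ ≤ ‖f ξ - f η‖ + ‖(f ξ - c * ξ) - (f η - c * η)‖ := by
      have : c * (ξ - η) = (f ξ - f η) - ((f ξ - c * ξ) - (f η - c * η)) := by ring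
      rw [this]; exact norm_sub_le _ _
    rw [norm_mul] at h4
    have h5 : m * ‖ξ - η‖ ≤ ‖c‖ * ‖ξ - η‖ := mul_le_mul_of_nonneg_right hc (norm_nonneg _)
    linarith
  refine ⟨hlow, ?_⟩
  have hx : x ∈ closedBall x ε := mem_closedBall_self hε.le
  have hcl : DiffContOnCl ℂ f (ball x ε) := by
    refine ⟨fun y hy => (hf y (ball_subset_closedBall hy)).differentiableWithinAt, ?_⟩
    rw [closure_ball x hε.ne']
    exact fun y hy => (hf y hy).continuousAt.continuousWithinAt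
  have hsp : ∀ z ∈ sphere x ε, m / 2 * ε ≤ ‖f z - f x‖ := by
    intro z hz
    have h1 := hlow z (sphere_subset_closedBall hz) x hx
    rwa [mem_sphere_iff_norm.1 hz] at h1
  have hfr : ∃ᶠ z in 𝓝 x, f z ≠ f x := by
    have h1 : ∀ᶠ z in 𝓝[≠] x, f z ≠ f x := by
      filter_upwards [self_mem_nhdsWithin, nhdsWithin_le_nhds (closedBall_mem_nhds x hε)]
        with z hz hz' he
      have h2 := hlow z hz' x hx
      rw [he, sub_self, norm_zero] at h2
      have h3 : 0 < ‖z - x‖ := norm_pos_iff.2 (sub_ne_zero.2 hz)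
      nlinarith
    exact h1.frequently.filter_mono nhdsWithin_le_nhds
  have hb := hcl.ball_subset_image_closedBall hε hsp hfr
  have h0m : (0 : ℂ) ∈ ball (f x) (m / 2 * ε / 2) := by
    rw [mem_ball, dist_eq_norm, zero_sub, norm_neg]
    linarith
  obtain ⟨ξ, hξ, hξ0⟩ := hb h0m
  refine ⟨ξ, ?_, hξ0⟩
  have h1 := hlow ξ hξ x hx
  rw [hξ0, zero_sub, norm_neg] at h1
  rw [mem_ball, dist_eq_norm]
  have h2 : m / 2 * ‖ξ - x‖ < m / 2 * (ε / 2) := by linarith
  have h3 : ‖ξ - x‖ < ε / 2 := lt_of_mul_lt_mul_left h2 (by positivity)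
  linarith

/-- a uniformly simple root depends holomorphically on the parameters -/
theorem diff_root {E : Type*} [NormedAddCommGroup E] [NormedSpace ℂ E] {G : E × ℂ → ℂ} {U : Set E}
    (hU : IsOpen U) {ξ : E → ℂ} {m : ℝ} (hm : 0 < m) {B : Set ℂ}
    (hG : ∀ z ∈ U, DifferentiableAt ℂ G (z, ξ z)) (hB : ∀ z ∈ U, ξ z ∈ B)
    (hlow : ∀ z ∈ U, ∀ ζ ∈ B, ∀ η ∈ B, m * ‖ζ - η‖ ≤ ‖G (z, ζ) - G (z, η)‖)
    (h0 : ∀ z ∈ U, G (z, ξ z) = 0) (hne : ∀ z ∈ U, deriv (fun η => G (z, η)) (ξ z) ≠ 0) :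
    DifferentiableOn ℂ ξ U := by
  intro z₀ hz₀
  apply DifferentiableAt.differentiableWithinAt
  have hF : HasFDerivAt G (fderiv ℂ G (z₀, ξ z₀)) (z₀, ξ z₀) := (hG z₀ hz₀).hasFDerivAt
  set G' := fderiv ℂ G (z₀, ξ z₀) with hG'
  set c : ℂ := G' (0, 1) with hc
  have hc1 : HasDerivAt (fun η => G (z₀, η)) c (ξ z₀) := by
    have h1 : HasDerivAt (fun η : ℂ => (z₀, η)) ((0 : E), (1 : ℂ)) (ξ z₀) :=
      (hasDerivAt_const _ _).prodMk (hasDerivAt_id _)
    exact hF.comp_hasDerivAt (ξ z₀) h1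
  have hc0 : c ≠ 0 := by rw [← hc1.deriv]; exact hne z₀ hz₀
  have hO : (fun z => ξ z - ξ z₀) =O[𝓝 z₀] fun z => z - z₀ := by
    have h1 : (fun z => G (z, ξ z₀) - G (z₀, ξ z₀)) =O[𝓝 z₀] fun z => z - z₀ := by
      have h2 : HasFDerivAt (fun z : E => (z, ξ z₀)) (ContinuousLinearMap.inl ℂ E ℂ) z₀ :=
        hasFDerivAt_prodMk_left z₀ (ξ z₀)
      exact (HasFDerivAt.comp z₀ (g := G) hF h2).isBigO_sub
    have h2 : (fun z => ξ z - ξ z₀) =O[𝓝 z₀] fun z => G (z, ξ z₀) - G (z₀, ξ z₀) := by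
      apply Asymptotics.IsBigO.of_bound (1 / m)
      filter_upwards [hU.mem_nhds hz₀] with z hz
      have h3 := hlow z hz _ (hB z hz) _ (hB z₀ hz₀)
      rw [h0 z hz, zero_sub, norm_neg] at h3
      rw [h0 z₀ hz₀, sub_zero, div_mul_eq_mul_div, one_mul, le_div_iff₀ hm]
      linarith
    exact h2.trans h1
  have hcont : Tendsto (fun z => (z, ξ z)) (𝓝 z₀) (𝓝 (z₀, ξ z₀)) := by
    refine Tendsto.prodMk_nhds tendsto_id ?_
    have h1 : Tendsto (fun z : E => z - z₀) (𝓝 z₀) (𝓝 0) := by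
      have : Continuous (fun z : E => z - z₀) := by fun_prop
      simpa using this.tendsto z₀
    have h2 := hO.trans_tendsto h1
    simpa using h2.add_const (ξ z₀)
  have hlo := hF.isLittleO.comp_tendsto hcont
  have hpair : (fun z => (z, ξ z) - (z₀, ξ z₀)) =O[𝓝 z₀] fun z => z - z₀ := by
    have h1 : (fun z => (z - z₀, ξ z - ξ z₀)) =O[𝓝 z₀] fun z => z - z₀ :=
      (Asymptotics.isBigO_refl _ _).prod_left hO
    exact h1
  have h1 : (fun z => G (z, ξ z) - G (z₀, ξ z₀) - G' ((z, ξ z) - (z₀, ξ z₀)))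
      =o[𝓝 z₀] fun z => z - z₀ := hlo.trans_isBigO hpair
  have h2 : HasFDerivAt ξ (-(c⁻¹ • G'.comp (ContinuousLinearMap.inl ℂ E ℂ))) z₀ := by
    rw [hasFDerivAt_iff_isLittleO]
    have h3 : (fun z => ξ z - ξ z₀ -
        (-(c⁻¹ • G'.comp (ContinuousLinearMap.inl ℂ E ℂ))) (z - z₀)) =ᶠ[𝓝 z₀]
        fun z => (-c⁻¹) * (G (z, ξ z) - G (z₀, ξ z₀) - G' ((z, ξ z) - (z₀, ξ z₀))) := by
      filter_upwards [hU.mem_nhds hz₀] with z hz
      have e1 : (z, ξ z) - (z₀, ξ z₀) = (z - z₀, (0 : ℂ)) + (ξ z - ξ z₀) • ((0 : E), (1 : ℂ)) := by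
        ext <;> simp
      rw [h0 z hz, h0 z₀ hz₀, e1, map_add, map_smul, ← hc]
      simp only [ContinuousLinearMap.neg_apply, ContinuousLinearMap.smul_apply,
        ContinuousLinearMap.comp_apply, ContinuousLinearMap.inl_apply, smul_eq_mul, sub_zero,
        zero_sub]
      field_simp
      ring
    exact (h1.const_mul_left (-c⁻¹)).congr' h3.symm (EventuallyEq.refl _ _)
  exact h2.differentiableAt

end Vale.Agent.P097.H686
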