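import Vale.Agent.P097.TC.Defs
import Vale.Agent.P097.H686.Wnd1

/-!
# P097, row A4.6-WND: a zero free window is regular (`wnd : TC.Wnd`)
-/

set_option linter.all false

open Complex Metric Filter Topology Set MeasureTheory

namespace Vale.Agent.P097.H686

open Vale.Agent.P097.TC

theorem isOpen_Sb (b : ℝ) : IsOpen (Sb b) :=
  isOpen_lt (continuous_abs.comp continuous_im) continuous_const

/-- explicit derivative of the incidence function -/
noncomputable def DM (F q : ℂ → ℂ) (a p x : ℂ) : ℂ :=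
  deriv (deriv F) x * (q x * Complex.cos (a - F x) - p) +
    (q x * deriv F x ^ 2 + deriv (deriv q) x) * Complex.sin (a - F x)

section curve
variable {b : ℝ} {F q : ℂ → ℂ}

theorem dAt {f : ℂ → ℂ} (dF : DifferentiableOn ℂ f (Sb b)) {x : ℂ} (hx : x ∈ Sb b) :
    DifferentiableAt ℂ f x := dF.differentiableAt ((isOpen_Sb b).mem_nhds hx)

theorem dOn' {f : ℂ → ℂ} (dF : DifferentiableOn ℂ f (Sb b)) :
    DifferentiableOn ℂ (deriv f) (Sb b) := dF.deriv (isOpen_Sb b)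

theorem hasDerivAt_Mi (dF : DifferentiableOn ℂ F (Sb b)) (dq : DifferentiableOn ℂ q (Sb b))
    {x : ℂ} (hx : x ∈ Sb b) (a p : ℂ) : HasDerivAt (Mi F q a p) (DM F q a p x) x := by
  have h1 := (dAt dF hx).hasDerivAt
  have h2 := (dAt dq hx).hasDerivAt
  have h3 := (dAt (dOn' dF) hx).hasDerivAt
  have h4 := (dAt (dOn' dq) hx).hasDerivAt
  have h5 : HasDerivAt (fun x => a - F x) (-deriv F x) x := by
    simpa using h1.const_sub a
  have h6 : HasDerivAt (fun x => Complex.cos (a - F x)) (-Complex.sin (a - F x) * -deriv F x) x :=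
    h5.ccos
  have h7 : HasDerivAt (fun x => Complex.sin (a - F x)) (Complex.cos (a - F x) * -deriv F x) x :=
    h5.csin
  have h8 := (h3.mul ((h2.mul h6).sub_const p)).add (h4.mul h7)
  refine (h8.congr_deriv ?_)
  simp only [DM, Pi.mul_apply]
  ring

/-- joint differentiability of the incidence function -/
theorem diff_Mi {E : Type*} [NormedAddCommGroup E] [NormedSpace ℂ E]
    (dF : DifferentiableOn ℂ F (Sb b)) (dq : DifferentiableOn ℂ q (Sb b)) {al p : E → ℂ} {w : E}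
    {x : ℂ} (hx : x ∈ Sb b) (ha : DifferentiableAt ℂ al w) (hp : DifferentiableAt ℂ p w) :
    DifferentiableAt ℂ (fun v : E × ℂ => Mi F q (al v.1) (p v.1) v.2) (w, x) := by
  have s2 : DifferentiableAt ℂ (fun v : E × ℂ => v.2) (w, x) := differentiableAt_snd
  have s1 : DifferentiableAt ℂ (fun v : E × ℂ => v.1) (w, x) := differentiableAt_fst
  have h1 : DifferentiableAt ℂ (fun v : E × ℂ => F v.2) (w, x) :=
    DifferentiableAt.comp (w, x) (g := F) (f := fun v : E × ℂ => v.2) (dAt dF hx) s2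
  have h2 : DifferentiableAt ℂ (fun v : E × ℂ => q v.2) (w, x) :=
    DifferentiableAt.comp (w, x) (g := q) (f := fun v : E × ℂ => v.2) (dAt dq hx) s2
  have h3 : DifferentiableAt ℂ (fun v : E × ℂ => deriv F v.2) (w, x) :=
    DifferentiableAt.comp (w, x) (g := deriv F) (f := fun v : E × ℂ => v.2) (dAt (dOn' dF) hx) s2
  have h4 : DifferentiableAt ℂ (fun v : E × ℂ => deriv q v.2) (w, x) :=
    DifferentiableAt.comp (w, x) (g := deriv q) (f := fun v : E × ℂ => v.2) (dAt (dOn' dq) hx) s2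
  have h5 : DifferentiableAt ℂ (fun v : E × ℂ => al v.1) (w, x) :=
    DifferentiableAt.comp (w, x) (g := al) (f := fun v : E × ℂ => v.1) ha s1
  have h6 : DifferentiableAt ℂ (fun v : E × ℂ => p v.1) (w, x) :=
    DifferentiableAt.comp (w, x) (g := p) (f := fun v : E × ℂ => v.1) hp s1
  exact (h3.mul ((h2.mul (h5.sub h1).ccos).sub h6)).add (h4.mul (h5.sub h1).csin)

theorem cont_Mi (dF : DifferentiableOn ℂ F (Sb b)) (dq : DifferentiableOn ℂ q (Sb b)) :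
    ContinuousOn (fun v : (ℂ × ℂ) × ℂ => Mi F q v.1.1 v.1.2 v.2) (univ ×ˢ Sb b) := by
  have s : MapsTo (fun v : (ℂ × ℂ) × ℂ => v.2) (univ ×ˢ Sb b) (Sb b) := fun v hv => hv.2
  have s2 : ContinuousOn (fun v : (ℂ × ℂ) × ℂ => v.2) (univ ×ˢ Sb b) := continuousOn_snd
  have h1 := dF.continuousOn.comp s2 s
  have h2 := dq.continuousOn.comp s2 s
  have h3 := (dOn' dF).continuousOn.comp s2 s
  have h4 := (dOn' dq).continuousOn.comp s2 s
  have h5 : ContinuousOn (fun v : (ℂ × ℂ) × ℂ => v.1.1) (univ ×ˢ Sb b) := by fun_prop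
  have h6 : ContinuousOn (fun v : (ℂ × ℂ) × ℂ => v.1.2) (univ ×ˢ Sb b) := by fun_prop
  exact (h3.mul ((h2.mul (Complex.continuous_cos.comp_continuousOn (h5.sub h1))).sub h6)).add
    (h4.mul (Complex.continuous_sin.comp_continuousOn (h5.sub h1)))

theorem cont_DM (dF : DifferentiableOn ℂ F (Sb b)) (dq : DifferentiableOn ℂ q (Sb b)) :
    ContinuousOn (fun v : (ℂ × ℂ) × ℂ => DM F q v.1.1 v.1.2 v.2) (univ ×ˢ Sb b) := by
  have s : MapsTo (fun v : (ℂ × ℂ) × ℂ => v.2) (univ ×ˢ Sb b) (Sb b) := fun v hv => hv.2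
  have s2 : ContinuousOn (fun v : (ℂ × ℂ) × ℂ => v.2) (univ ×ˢ Sb b) := continuousOn_snd
  have h1 := dF.continuousOn.comp s2 s
  have h2 := dq.continuousOn.comp s2 s
  have h3 := (dOn' dF).continuousOn.comp s2 s
  have h4 := (dOn' (dOn' dq)).continuousOn.comp s2 s
  have h4' := (dOn' (dOn' dF)).continuousOn.comp s2 s
  have h5 : ContinuousOn (fun v : (ℂ × ℂ) × ℂ => v.1.1) (univ ×ˢ Sb b) := by fun_prop
  have h6 : ContinuousOn (fun v : (ℂ × ℂ) × ℂ => v.1.2) (univ ×ˢ Sb b) := by fun_prop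
  exact (h4'.mul ((h2.mul (Complex.continuous_cos.comp_continuousOn (h5.sub h1))).sub h6)).add
    (((h2.mul (h3.pow 2)).add h4).mul (Complex.continuous_sin.comp_continuousOn (h5.sub h1)))

theorem Mi_period (a p x : ℂ) (N : ℤ) : Mi F q (a - 2 * Real.pi * N) p x = Mi F q a p x := by
  have e : a - 2 * Real.pi * N - F x = (a - F x) - (N : ℂ) * (2 * Real.pi) := by ring
  simp only [Mi, e, Complex.cos_sub_int_mul_two_pi, Complex.sin_sub_int_mul_two_pi]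

/-- the derivative at an incident vertex -/
theorem DM_of_inc {Λ : ℝ} (C : Cv Λ b F q) {a p x : ℂ} (hx : x ∈ Sb b) (hF : deriv F x ≠ 0)
    (h : Mi F q a p x = 0) : DM F q a p x = Complex.sin (a - F x) * (Λ : ℂ) ^ 3 / deriv F x := by
  have hw := C.wr x hx
  simp only [Mi] at h
  rw [eq_div_iff hF, DM, ← hw]
  linear_combination (deriv (deriv F) x) * h

end curve

/-! ### blow ups -/

theorem K1_mono {k k' : ℝ} (h : k' ≤ k) (h0 : 0 < k') : K1 k' ⊆ K1 k := by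
  rintro ⟨a, c⟩ h1
  simp only [K1, mem_setOf_eq] at h1 ⊢
  have ha : 0 < a := by
    by_contra hcon
    push Not at hcon
    have : |c| < 0 := by nlinarith [abs_nonneg c]
    linarith [abs_nonneg c]
  nlinarith

theorem K1_sub_K2 {k : ℝ} (h0 : 0 < k) (h1 : k < 1) : K1 k ⊆ K2 k := by
  rintro ⟨a, c⟩ h
  simp only [K1, K2, mem_setOf_eq] at h ⊢
  have ha : 0 < a := by
    by_contra hcon
    push Not at hcon
    have : |c| < 0 := by nlinarith [abs_nonneg c]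
    linarith [abs_nonneg c]
  have h2 := abs_lt.1 h
  constructor
  · nlinarith [mul_pos h0 ha]
  · linarith [h2.1]

theorem ht_bl (e : ℝ × ℝ) (r : ℝ) (z : ℂ × ℂ) : ht (bl e r z) = r • ht z := by
  simp [ht, bl]

theorem ft_bl (e : ℝ × ℝ) (r : ℝ) (z : ℂ × ℂ) : ft (bl e r z) = e + r • ft z := by
  ext <;> simp [ft, bl]

theorem bl_bl (e x' : ℝ × ℝ) (r s : ℝ) (z : ℂ × ℂ) :
    bl (e + r • x') (s * r) z = bl e r (bl x' s z) := by
  ext
  · simp only [bl, Prod.fst_add, Prod.smul_fst, smul_eq_mul]; push_cast; ring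
  · simp only [bl, Prod.snd_add, Prod.smul_snd, smul_eq_mul]; push_cast; ring

theorem K1_smul {k r : ℝ} (hr : 0 < r) {y : ℝ × ℝ} (h : y ∈ K1 k) : r • y ∈ K1 k := by
  simp only [K1, mem_setOf_eq, Prod.smul_fst, Prod.smul_snd, smul_eq_mul] at h ⊢
  rw [abs_mul, abs_of_pos hr]
  nlinarith

theorem K2_smul {k r : ℝ} (hr : 0 < r) {y : ℝ × ℝ} (h : y ∈ K2 k) : r • y ∈ K2 k := by
  simp only [K2, mem_setOf_eq, Prod.smul_fst, Prod.smul_snd, smul_eq_mul] at h ⊢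
  constructor <;> nlinarith [mul_pos hr h.1, mul_pos hr h.2]

theorem convex_K1 (k : ℝ) : Convex ℝ (K1 k) := by
  intro x hx y hy a c ha hc hac
  simp only [K1, mem_setOf_eq, Prod.fst_add, Prod.smul_fst, smul_eq_mul, Prod.snd_add,
    Prod.smul_snd] at hx hy ⊢
  have h1 : |a * x.2 + c * y.2| ≤ a * |x.2| + c * |y.2| := by
    refine (abs_add_le _ _).trans ?_
    rw [abs_mul, abs_mul, abs_of_nonneg ha, abs_of_nonneg hc]
  rcases ha.eq_or_lt with h | h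
  · have : c = 1 := by linarith
    subst this
    rw [← h] at h1 ⊢
    linarith
  · have h2 : a * |x.2| < a * (k * x.1) := mul_lt_mul_of_pos_left hx h
    have h3 : c * |y.2| ≤ c * (k * y.1) := mul_le_mul_of_nonneg_left hy.le hc
    linarith

theorem isOpen_K1 (k : ℝ) : IsOpen (K1 k) :=
  isOpen_lt (continuous_abs.comp continuous_snd) (continuous_const.mul continuous_fst)

theorem continuous_ft : Continuous ft := by
  unfold ft
  fun_prop

theorem isOpen_TB {K : Set (ℝ × ℝ)} (hK : IsOpen K) (e : ℝ × ℝ) (ρ : ℝ) : IsOpen (TB e ρ K) :=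
  (isOpen_ball.preimage continuous_ft).inter
    ((isOpen_lt (continuous_norm.comp continuous_ht) continuous_const).inter
      (hK.preimage continuous_ht))

theorem convex_TB {K : Set (ℝ × ℝ)} (hK : Convex ℝ K) (e : ℝ × ℝ) (ρ : ℝ) :
    Convex ℝ (TB e ρ K) := by
  intro x hx y hy a c ha hc hac
  have e1 : ft (a • x + c • y) = a • ft x + c • ft y := by ext <;> simp [ft]
  have e2 : ht (a • x + c • y) = a • ht x + c • ht y := by ext <;> simp [ht]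
  refine ⟨?_, ?_, ?_⟩
  · rw [e1]; exact convex_ball e ρ hx.1 hy.1 ha hc hac
  · rw [e2]
    have := convex_ball (0 : ℝ × ℝ) ρ (mem_ball_zero_iff.2 hx.2.1) (mem_ball_zero_iff.2 hy.2.1)
      ha hc hac
    exact mem_ball_zero_iff.1 this
  · rw [e2]; exact hK hx.2.2 hy.2.2 ha hc hac

theorem continuous_bl (e : ℝ × ℝ) (r : ℝ) : Continuous (bl e r) := by
  unfold bl
  fun_prop

/-- inverse of the blow up -/
noncomputable def ib (e : ℝ × ℝ) (r : ℝ) (w : ℂ × ℂ) : ℂ × ℂ := ((w.1 - e.1) / r, (w.2 - e.2) / r)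

theorem continuous_ib (e : ℝ × ℝ) (r : ℝ) : Continuous (ib e r) := by
  unfold ib
  fun_prop

theorem bl_ib (e : ℝ × ℝ) {r : ℝ} (hr : r ≠ 0) (w : ℂ × ℂ) : bl e r (ib e r w) = w := by
  have h : (r : ℂ) ≠ 0 := by exact_mod_cast hr
  ext
  · simp only [bl, ib]; field_simp; ring
  · simp only [bl, ib]; field_simp; ring

theorem ib_bl (e : ℝ × ℝ) {r : ℝ} (hr : r ≠ 0) (w : ℂ × ℂ) : ib e r (bl e r w) = w := by
  have h : (r : ℂ) ≠ 0 := by exact_mod_cast hr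
  ext
  · simp only [bl, ib]; field_simp; ring
  · simp only [bl, ib]; field_simp; ring

theorem convex_ib {N : Set (ℂ × ℂ)} (hN : Convex ℝ N) (e : ℝ × ℝ) (r : ℝ) :
    Convex ℝ (ib e r ⁻¹' N) := by
  intro x hx y hy a c ha hc hac
  have h1 := hN hx hy ha hc hac
  have hac' : (a : ℂ) + c = 1 := by exact_mod_cast hac
  have e1 : ib e r (a • x + c • y) = a • ib e r x + c • ib e r y := by
    ext
    · simp only [ib, Prod.fst_add, Prod.smul_fst, real_smul]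
      have : (a : ℂ) * x.1 + c * y.1 - e.1 = a * (x.1 - e.1) + c * (y.1 - e.1) := by
        linear_combination ((e.1 : ℂ)) * hac'
      rw [this]; ring
    · simp only [ib, Prod.snd_add, Prod.smul_snd, real_smul]
      have : (a : ℂ) * x.2 + c * y.2 - e.2 = a * (x.2 - e.2) + c * (y.2 - e.2) := by
        linear_combination ((e.2 : ℂ)) * hac'
      rw [this]; ring
  show ib e r (a • x + c • y) ∈ N
  rw [e1]; exact h1

/-- compact sets are blown into the local tube -/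
theorem bl_mem_TB {k k' : ℝ} (h0 : 0 < k') (h : k' ≤ k) (h1 : k < 1) {e₀ e : ℝ × ℝ} {ρ : ℝ}
    (hρ : 0 < ρ) (he : e ∈ ball e₀ ρ) {K : Set (ℂ × ℂ)} (hK : IsCompact K) (hs : K ⊆ Tc (K2 k')) :
    ∀ᶠ r in 𝓝[>] (0 : ℝ), ∀ z ∈ K, bl e r z ∈ TB e₀ ρ (K2 k) := by
  obtain ⟨M, hM⟩ := hK.isBounded.exists_norm_le
  have hM' : ∀ z ∈ K, ‖ft z‖ ≤ |M| ∧ ‖ht z‖ ≤ |M| := by
    intro z hz
    have h2 := (hM z hz).trans (le_abs_self M)
    have h3 : ‖z.1‖ ≤ |M| := (norm_fst_le z).trans h2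
    have h4 : ‖z.2‖ ≤ |M| := (norm_snd_le z).trans h2
    constructor
    · exact max_le ((abs_re_le_norm z.1).trans h3) ((abs_re_le_norm z.2).trans h4)
    · exact max_le ((abs_im_le_norm z.1).trans h3) ((abs_im_le_norm z.2).trans h4)
  obtain ⟨d, hd, hd'⟩ := Metric.isOpen_iff.1 isOpen_ball e he
  have t1 : Tendsto (fun r : ℝ => r * |M|) (𝓝[>] 0) (𝓝 0) := by
    have : Tendsto (fun r : ℝ => r * |M|) (𝓝 0) (𝓝 (0 * |M|)) :=
      (tendsto_id (α := ℝ)).mul_const |M|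
    rw [zero_mul] at this
    exact this.mono_left nhdsWithin_le_nhds
  filter_upwards [self_mem_nhdsWithin, t1.eventually_lt_const hd, t1.eventually_lt_const hρ]
    with r hr hr1 hr2 z hz
  have hr0 : 0 < r := hr
  refine ⟨hd' ?_, ?_, ?_⟩
  · rw [ft_bl, mem_ball, dist_eq_norm, add_sub_cancel_left, norm_smul, Real.norm_of_nonneg hr0.le]
    exact (mul_le_mul_of_nonneg_left (hM' z hz).1 hr0.le).trans_lt hr1
  · rw [ht_bl, norm_smul, Real.norm_of_nonneg hr0.le]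
    exact (mul_le_mul_of_nonneg_left (hM' z hz).2 hr0.le).trans_lt hr2
  · rw [ht_bl]
    exact K2_smul hr0 (K2_mono h0 h h1 (hs hz))

theorem bl_mem_TB1 {k : ℝ} {e₀ e : ℝ × ℝ} {ρ : ℝ}
    (hρ : 0 < ρ) (he : e ∈ ball e₀ ρ) {z : ℂ × ℂ} (hz : z ∈ Tc (K1 k)) :
    ∀ᶠ a : ℝ × (ℂ × ℂ) in 𝓝[>] (0 : ℝ) ×ˢ 𝓝 z, bl e a.1 a.2 ∈ TB e₀ ρ (K1 k) := by
  have hc : Continuous (fun a : ℝ × (ℂ × ℂ) => bl e a.1 a.2) := by
    unfold bl; fun_prop
  have h1 : ∀ᶠ a : ℝ × (ℂ × ℂ) in 𝓝 ((0 : ℝ), z), ft (bl e a.1 a.2) ∈ ball e₀ ρ ∧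
      ‖ht (bl e a.1 a.2)‖ < ρ := by
    have h2 : ft (bl e 0 z) = e := by simp [ft_bl]
    have h3 : ht (bl e 0 z) = 0 := by simp [ht_bl]
    have c1 : ContinuousAt (fun a : ℝ × (ℂ × ℂ) => ft (bl e a.1 a.2)) ((0 : ℝ), z) :=
      (continuous_ft.comp hc).continuousAt
    have c2 : ContinuousAt (fun a : ℝ × (ℂ × ℂ) => ‖ht (bl e a.1 a.2)‖) ((0 : ℝ), z) :=
      (continuous_norm.comp (continuous_ht.comp hc)).continuousAt
    have t1 := c1.eventually_mem (isOpen_ball.mem_nhds (x := ft (bl e 0 z)) (by rw [h2]; exact he))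
    have t2 := c2.eventually_lt_const (u := ρ) (by simp only [h3, norm_zero]; exact hρ)
    exact t1.and t2
  have h4 : 𝓝[>] (0 : ℝ) ×ˢ 𝓝 z ≤ 𝓝 ((0 : ℝ), z) := by
    have h41 : 𝓝 ((0 : ℝ), z) = 𝓝 (0 : ℝ) ×ˢ 𝓝 z := nhds_prod_eq
    rw [h41]
    exact Filter.prod_mono nhdsWithin_le_nhds le_rfl
  have h5 : ∀ᶠ a : ℝ × (ℂ × ℂ) in 𝓝[>] (0 : ℝ) ×ˢ 𝓝 z, 0 < a.1 ∧ ht a.2 ∈ K1 k := by
    have t1 : ∀ᶠ r in 𝓝[>] (0 : ℝ), 0 < r := self_mem_nhdsWithin
    have t2 : ∀ᶠ v in 𝓝 z, ht v ∈ K1 k :=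
      continuous_ht.continuousAt.eventually_mem ((isOpen_K1 k).mem_nhds hz)
    exact t1.prod_mk t2
  filter_upwards [h4 h1, h5] with a ha hb
  refine ⟨ha.1, ha.2, ?_⟩
  rw [ht_bl]
  exact K1_smul hb.1 hb.2

/-- uniform continuity near a compact set, in the form used below -/
theorem unif_near {H : (ℂ × ℂ) × ℂ → ℂ} {b : ℝ} (hH : ContinuousOn H (univ ×ˢ Sb b))
    {C : Set (ℂ × ℂ)} (hC : IsCompact C) {x : ℂ} (hx : x ∈ Sb b) {η : ℝ} (hη : 0 < η) :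
    ∃ δ > 0, ∀ v ∈ C, ∀ u : ℂ × ℂ, ‖u.1 - v.1‖ < δ → ‖u.2 - v.2‖ < δ → ∀ ξ : ℂ, ‖ξ - x‖ ≤ δ →
      ξ ∈ Sb b ∧ ‖H (u, ξ) - H (v, x)‖ < η := by
  obtain ⟨ε, hε, hεb⟩ := Metric.nhds_basis_closedBall.mem_iff.1 ((isOpen_Sb b).mem_nhds hx)
  have hK : IsCompact (cthickening 1 C ×ˢ closedBall x ε) :=
    hC.cthickening.prod (isCompact_closedBall x ε)
  have hu := hK.uniformContinuousOn_of_continuous
    (hH.mono (fun v hv => ⟨mem_univ _, hεb hv.2⟩))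
  obtain ⟨δ, hδ, hδ'⟩ := Metric.uniformContinuousOn_iff.1 hu η hη
  refine ⟨min (min (δ / 2) ε) 1, by positivity, fun v hv u h1 h2 ξ h3 => ?_⟩
  have e1 : min (min (δ / 2) ε) 1 ≤ δ / 2 := (min_le_left _ _).trans (min_le_left _ _)
  have e2 : min (min (δ / 2) ε) 1 ≤ ε := (min_le_left _ _).trans (min_le_right _ _)
  have e3 : min (min (δ / 2) ε) 1 ≤ 1 := min_le_right _ _
  have hξ : ξ ∈ closedBall x ε := by
    rw [mem_closedBall, dist_eq_norm]; exact h3.trans e2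
  have hd : dist u v < min (min (δ / 2) ε) 1 := by
    rw [Prod.dist_eq, dist_eq_norm, dist_eq_norm]
    exact max_lt h1 h2
  have hu' : u ∈ cthickening 1 C :=
    mem_cthickening_of_dist_le u v 1 C hv (hd.le.trans e3)
  have hv' : v ∈ cthickening 1 C := self_subset_cthickening C hv
  refine ⟨hεb hξ, ?_⟩
  have := hδ' (u, ξ) ⟨hu', hξ⟩ (v, x) ⟨hv', mem_closedBall_self hε.le⟩ ?_
  · rwa [dist_eq_norm] at this
  · rw [Prod.dist_eq]
    refine max_lt (hd.trans_le (e1.trans (by linarith))) ?_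
    simp only
    rw [dist_eq_norm]
    exact (h3.trans e1).trans_lt (by linarith)

/-- the root over one window -/
theorem root_on {b : ℝ} {F q : ℂ → ℂ} (dF : DifferentiableOn ℂ F (Sb b))
    (dq : DifferentiableOn ℂ q (Sb b)) {x : ℂ} {ε m : ℝ} (hε : 0 < ε) (hm : 0 < m)
    {V : Set (ℂ × ℂ)} (Vo : IsOpen V) {al p : ℂ × ℂ → ℂ}
    (hal : ∀ w ∈ V, DifferentiableAt ℂ al w) (hp : ∀ w ∈ V, DifferentiableAt ℂ p w)
    (hdat : ∀ w ∈ V, ∃ (a c : ℂ), Mi F q a (p w) = Mi F q (al w) (p w) ∧ m ≤ ‖c‖ ∧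
      (∀ ξ : ℂ, ‖ξ - x‖ ≤ ε → ξ ∈ Sb b ∧ ‖DM F q a (p w) ξ - c‖ < m / 2) ∧
      ‖Mi F q a (p w) x‖ < m * ε / 4) :
    ∃ ξ : ℂ × ℂ → ℂ, DifferentiableOn ℂ ξ V ∧
      (∀ w ∈ V, ξ w ∈ Sb b ∧ Mi F q (al w) (p w) (ξ w) = 0 ∧
        deriv (Mi F q (al w) (p w)) (ξ w) ≠ 0) ∧
      (∀ w ∈ V, ∀ ζ ∈ ball x ε, Mi F q (al w) (p w) ζ = 0 → ξ w = ζ) := by
  have key : ∀ w ∈ V, ((∀ ξ ∈ closedBall x ε, ξ ∈ Sb b ∧ deriv (Mi F q (al w) (p w)) ξ ≠ 0) ∧
      (∀ ξ ∈ closedBall x ε, ∀ ζ ∈ closedBall x ε,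
        m / 2 * ‖ξ - ζ‖ ≤ ‖Mi F q (al w) (p w) ξ - Mi F q (al w) (p w) ζ‖) ∧
      ∃ ξ ∈ ball x ε, Mi F q (al w) (p w) ξ = 0) := by
    intro w hw
    obtain ⟨a, c, hper, hmz, b1, b2⟩ := hdat w hw
    have hderiv : ∀ ξ ∈ closedBall x ε, ξ ∈ Sb b ∧
        HasDerivAt (Mi F q (al w) (p w)) (DM F q a (p w) ξ) ξ ∧
        ‖DM F q a (p w) ξ - c‖ < m / 2 := by
      intro ξ hξ
      have c1 := b1 ξ (by rw [← dist_eq_norm]; exact hξ)
      refine ⟨c1.1, ?_, c1.2⟩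
      rw [← hper]
      exact hasDerivAt_Mi dF dq c1.1 _ _
    rw [hper] at b2
    obtain ⟨c2, c3⟩ := root_bounds hε hm (f := Mi F q (al w) (p w))
      (c := c) (fun ξ hξ => (hderiv ξ hξ).2.1.differentiableAt) hmz
      (fun ξ hξ => by rw [(hderiv ξ hξ).2.1.deriv]; exact (hderiv ξ hξ).2.2.le) b2
    refine ⟨fun ξ hξ => ⟨(hderiv ξ hξ).1, ?_⟩, c2, c3⟩
    rw [(hderiv ξ hξ).2.1.deriv]
    intro h0
    have := (hderiv ξ hξ).2.2
    rw [h0, zero_sub, norm_neg] at this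
    linarith
  choose! ξ hξ1 hξ2 using fun w hw => (key w hw).2.2
  have hξc : ∀ w ∈ V, ξ w ∈ closedBall x ε := fun w hw => ball_subset_closedBall (hξ1 w hw)
  refine ⟨ξ, ?_, fun w hw => ⟨((key w hw).1 _ (hξc w hw)).1, hξ2 w hw,
    ((key w hw).1 _ (hξc w hw)).2⟩, fun w hw ζ hζ hζ0 => ?_⟩
  · refine diff_root (G := fun v : (ℂ × ℂ) × ℂ => Mi F q (al v.1) (p v.1) v.2) Vo
      (m := m / 2) (by positivity) (B := closedBall x ε) (fun w hw => ?_) hξc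
      (fun w hw ζ hζ η hη => (key w hw).2.1 ζ hζ η hη) hξ2 (fun w hw => ?_)
    · exact diff_Mi dF dq ((key w hw).1 _ (hξc w hw)).1 (hal w hw) (hp w hw)
    · exact ((key w hw).1 _ (hξc w hw)).2
  · have u1 := (key w hw).2.1 _ (hξc w hw) _ (ball_subset_closedBall hζ)
    rw [hξ2 w hw, hζ0, sub_self, norm_zero] at u1
    have u2 : ‖ξ w - ζ‖ = 0 := by
      have := norm_nonneg (ξ w - ζ)
      nlinarith
    exact sub_eq_zero.1 (norm_eq_zero.1 u2)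

/-- gluing of a root over `V` with `th` over `T` -/
theorem regW_of {b : ℝ} {F q : ℂ → ℂ} {al p th : ℂ × ℂ → ℂ} {T V : Set (ℂ × ℂ)} {e' : ℝ × ℝ}
    {s ε : ℝ} {x : ℂ} {W : Set (ℂ × ℂ)} (To : IsOpen T) (Tc' : Convex ℝ T) (Vo : IsOpen V)
    (Vc : Convex ℝ V) (hWV : bl e' s '' W ⊆ V) (dth : DifferentiableOn ℂ th T)
    (inc : ∀ z ∈ T, Mi F q (al z) (p z) (th z) = 0) {ξ : ℂ × ℂ → ℂ}
    (hξd : DifferentiableOn ℂ ξ V)
    (hξ : ∀ w ∈ V, ξ w ∈ Sb b ∧ Mi F q (al w) (p w) (ξ w) = 0 ∧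
        deriv (Mi F q (al w) (p w)) (ξ w) ≠ 0)
    (hu : ∀ w ∈ V, ∀ ζ ∈ ball x ε, Mi F q (al w) (p w) ζ = 0 → ξ w = ζ)
    {w₁ : ℂ × ℂ} (hw₁V : w₁ ∈ V) (hw₁T : w₁ ∈ T) (hw₁ : ∀ᶠ w in 𝓝 w₁, th w ∈ ball x ε) :
    RegW b F q al p th T e' s W := by
  have hloc : ξ =ᶠ[𝓝 w₁] th := by
    filter_upwards [hw₁, Vo.mem_nhds hw₁V, To.mem_nhds hw₁T] with w h1 h2 h3
    exact hu w h2 _ h1 (inc w h3)
  have hid : EqOn ξ th (V ∩ T) :=
    ident_convex (Vo.inter To) (Vc.inter Tc') (hξd.mono inter_subset_left)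
      (dth.mono inter_subset_right) ⟨hw₁V, hw₁T⟩ hloc
  classical
  have hT' : ∀ w ∈ T, (V.piecewise ξ th) w = th w := by
    intro w hw
    by_cases hwV : w ∈ V
    · rw [piecewise_eq_of_mem _ _ _ hwV]; exact hid ⟨hwV, hw⟩
    · rw [piecewise_eq_of_notMem _ _ _ hwV]
  have hV' : ∀ w ∈ V, (V.piecewise ξ th) w = ξ w := fun w hw => piecewise_eq_of_mem _ _ _ hw
  refine ⟨V, V.piecewise ξ th, Vo, hWV, ?_, hT', ?_⟩
  · exact (dth.congr hT').union_of_isOpen (hξd.congr hV') To Vo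
  · intro z hz
    rw [hV' z hz]
    exact hξ z hz

theorem wnd : Wnd := by
  intro Λ b F q e₀ ρ k al p th L k' hk0 hkk e x he hx hFx hNT r N al₀ p₀ G W hWc hWconv hWs hWne
    s x' hs hx' hsin
  have dF := L.cv.dF
  have dq := L.cv.dq
  -- the window in blown up coordinates
  obtain ⟨W', hW'⟩ : ∃ W' : Set (ℂ × ℂ), W' = bl x' s '' W := ⟨_, rfl⟩
  have W'c : IsCompact W' := by rw [hW']; exact hWc.image (continuous_bl x' s)
  have W'conv : Convex ℝ W' := by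
    have h1 : W' = ib x' s ⁻¹' W := by
      rw [hW']
      ext w
      constructor
      · rintro ⟨z, hz, rfl⟩
        show ib x' s (bl x' s z) ∈ W
        rw [ib_bl x' hs.ne']; exact hz
      · intro hw
        exact ⟨ib x' s w, hw, bl_ib x' hs.ne' w⟩
    rw [h1]
    exact convex_ib hWconv x' s
  have W's : W' ⊆ Tc (K2 k') := by
    rw [hW']
    rintro w ⟨z, hz, rfl⟩
    show ht (bl x' s z) ∈ K2 k'
    rw [ht_bl]; exact K2_smul hs (hWs hz)
  obtain ⟨z₁, hz₁W, hz₁⟩ : ∃ z₁ ∈ W', z₁ ∈ Tc (K1 k') := by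
    rw [hW']
    obtain ⟨z, hz, hz'⟩ := hWne
    refine ⟨bl x' s z, mem_image_of_mem _ hz, ?_⟩
    show ht (bl x' s z) ∈ K1 k'
    rw [ht_bl]; exact K1_smul hs hz'
  have hsin' : ∀ z ∈ W', Complex.sin (al₀ z - F x) ≠ 0 := by
    rw [hW']
    rintro w ⟨z, hz, rfl⟩
    exact hsin z hz
  -- a compact neighbourhood
  have hopen : IsOpen (Tc (K2 k') ∩ {z | Complex.sin (al₀ z - F x) ≠ 0}) := by
    have hc : ContinuousOn (fun z => Complex.sin (al₀ z - F x)) (Tc (K2 k')) :=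
      Complex.continuous_sin.comp_continuousOn (G.dal.continuousOn.sub continuousOn_const)
    exact hc.isOpen_inter_preimage (isOpen_Tc2 k') isOpen_ne
  obtain ⟨η, hη, hηs⟩ := W'c.exists_cthickening_subset_open hopen (fun z hz => ⟨W's hz, hsin' z hz⟩)
  obtain ⟨K, hK⟩ : ∃ K : Set (ℂ × ℂ), K = cthickening η W' := ⟨_, rfl⟩
  rw [← hK] at hηs
  have Kc : IsCompact K := by rw [hK]; exact W'c.cthickening
  have Ks : K ⊆ Tc (K2 k') := fun z hz => (hηs hz).1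
  obtain ⟨Nn, hNn⟩ : ∃ Nn : Set (ℂ × ℂ), Nn = thickening η W' := ⟨_, rfl⟩
  have NK : Nn ⊆ K := by rw [hNn, hK]; exact thickening_subset_cthickening η W'
  have No : IsOpen Nn := by rw [hNn]; exact isOpen_thickening
  have Nc : Convex ℝ Nn := by rw [hNn]; exact W'conv.thickening η
  have WN : W' ⊆ Nn := by rw [hNn]; exact self_subset_thickening hη W'
  -- the limit data on K
  obtain ⟨Cc, hCc⟩ : ∃ Cc : Set (ℂ × ℂ), Cc = (fun z => (al₀ z, p₀ z)) '' K := ⟨_, rfl⟩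
  have Ccm : ∀ z ∈ K, (al₀ z, p₀ z) ∈ Cc := by
    rw [hCc]; exact fun z hz => mem_image_of_mem (fun z => (al₀ z, p₀ z)) hz
  have Ccc : IsCompact Cc := by
    rw [hCc]
    exact Kc.image_of_continuousOn
      ((G.dal.continuousOn.mono Ks).prodMk (G.dp.continuousOn.mono Ks))
  have hcK : ∀ v ∈ Cc, DM F q v.1 v.2 x ≠ 0 := by
    rw [hCc]
    rintro v ⟨z, hz, rfl⟩
    rw [DM_of_inc L.cv hx hFx (G.pen z (Ks hz))]
    have h1 : (Λ : ℂ) ≠ 0 := by exact_mod_cast L.cv.Λ0.ne'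
    exact div_ne_zero (mul_ne_zero (hηs hz).2 (pow_ne_zero 3 h1)) hFx
  obtain ⟨m, hm, hmK⟩ : ∃ m > 0, ∀ v ∈ Cc, m ≤ ‖DM F q v.1 v.2 x‖ := by
    have hcont : ContinuousOn (fun v : ℂ × ℂ => ‖DM F q v.1 v.2 x‖) Cc := by
      have h1 : ContinuousOn (fun v : ℂ × ℂ => DM F q v.1 v.2 x) Cc :=
        (cont_DM dF dq).comp (f := fun v : ℂ × ℂ => (v, x)) (by fun_prop)
          (fun v _ => ⟨mem_univ _, hx⟩)
      exact h1.norm
    have hne : Cc.Nonempty := ⟨_, Ccm z₁ (NK (WN hz₁W))⟩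
    obtain ⟨v, hv, hmin⟩ := Ccc.exists_isMinOn hne hcont
    exact ⟨‖DM F q v.1 v.2 x‖, norm_pos_iff.2 (hcK v hv), fun u hu => hmin hu⟩
  obtain ⟨ε, hε, hε'⟩ := unif_near (cont_DM dF dq) Ccc hx (η := m / 2) (by positivity)
  obtain ⟨δ, hδ, hδ'⟩ := unif_near (cont_Mi dF dq) Ccc hx (η := m * ε / 4) (by positivity)
  -- everything for large n
  have hr : Tendsto r atTop (𝓝[>] 0) := tendsto_nhdsWithin_iff.2 ⟨G.rt, Eventually.of_forall G.r0⟩
  have ev1 : ∀ᶠ n in atTop, ∀ z ∈ K, bl e (r n) z ∈ TB e₀ ρ (K2 k) :=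
    hr.eventually (bl_mem_TB hk0 hkk.le L.k1 L.ρ0 he Kc Ks)
  have hdm : 0 < min ε δ := lt_min hε hδ
  have ev2 : ∀ᶠ n in atTop, ∀ z ∈ K,
      dist (al₀ z) (al (bl e (r n) z) - 2 * Real.pi * N n) < min ε δ := by
    have h1 := (tendstoLocallyUniformlyOn_iff_forall_isCompact (isOpen_Tc2 k')).1 G.cal K Ks Kc
    exact Metric.tendstoUniformlyOn_iff.1 h1 _ hdm
  have ev3 : ∀ᶠ n in atTop, ∀ z ∈ K, dist (p₀ z) (p (bl e (r n) z)) < min ε δ := by
    have h1 := (tendstoLocallyUniformlyOn_iff_forall_isCompact (isOpen_Tc2 k')).1 G.cp K Ks Kc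
    exact Metric.tendstoUniformlyOn_iff.1 h1 _ hdm
  have hz₁k : z₁ ∈ Tc (K1 k) := K1_mono hkk.le hk0 hz₁
  have ev4 : ∀ᶠ n in atTop, ∀ᶠ z in 𝓝 z₁, th (bl e (r n) z) ∈ ball x ε ∧
      bl e (r n) z ∈ TB e₀ ρ (K1 k) := by
    have h1 := (hNT z₁ hz₁k).eventually_mem (ball_mem_nhds x hε)
    have h2 := (h1.and (bl_mem_TB1 L.ρ0 he hz₁k)).curry
    exact hr.eventually h2
  filter_upwards [ev1, ev2, ev3, ev4] with n h1 h2 h3 h4
  have hrn : r n ≠ 0 := (G.r0 n).ne'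
  obtain ⟨V, hV⟩ : ∃ V : Set (ℂ × ℂ), V = ib e (r n) ⁻¹' Nn := ⟨_, rfl⟩
  have hVm : ∀ w, w ∈ V ↔ ib e (r n) w ∈ Nn := by rw [hV]; exact fun w => Iff.rfl
  have Vo : IsOpen V := by rw [hV]; exact No.preimage (continuous_ib e (r n))
  have Vc : Convex ℝ V := by rw [hV]; exact convex_ib Nc e (r n)
  have hblV : ∀ z ∈ Nn, bl e (r n) z ∈ V := by
    intro z hz
    rw [hVm, ib_bl e hrn]; exact hz
  have VT : ∀ w ∈ V, w ∈ TB e₀ ρ (K2 k) := by
    intro w hw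
    have := h1 _ (NK ((hVm w).1 hw))
    rwa [bl_ib e hrn] at this
  have hTBo := isOpen_TB (isOpen_K2 k) e₀ ρ
  obtain ⟨ξ, hξd, hξ, hξu⟩ := root_on dF dq hε hm Vo (al := al) (p := p) (x := x)
    (fun w hw => L.dal.differentiableAt (hTBo.mem_nhds (VT w hw)))
    (fun w hw => L.dp.differentiableAt (hTBo.mem_nhds (VT w hw))) (by
      intro w hw
      have hzK : ib e (r n) w ∈ K := NK ((hVm w).1 hw)
      have hbz : bl e (r n) (ib e (r n) w) = w := bl_ib e hrn w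
      have a1 := h2 _ hzK
      have a2 := h3 _ hzK
      rw [hbz, dist_comm, dist_eq_norm] at a1 a2
      have hCz := Ccm _ hzK
      have b1 := hε' _ hCz (al w - 2 * Real.pi * N n, p w) (a1.trans_le (min_le_left _ _))
        (a2.trans_le (min_le_left _ _))
      have b2 := (hδ' _ hCz (al w - 2 * Real.pi * N n, p w) (a1.trans_le (min_le_right _ _))
        (a2.trans_le (min_le_right _ _)) x (by rw [sub_self, norm_zero]; exact hδ.le)).2
      have hpen := G.pen _ (Ks hzK)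
      simp only [hpen, sub_zero] at b2
      exact ⟨al w - 2 * Real.pi * N n, _, funext fun ξ => Mi_period _ _ _ _, hmK _ hCz, b1, b2⟩)
  have t1 : ∀ᶠ w in 𝓝 (bl e (r n) z₁), th w ∈ ball x ε := by
    have t2 : Tendsto (ib e (r n)) (𝓝 (bl e (r n) z₁)) (𝓝 z₁) := by
      have := (continuous_ib e (r n)).tendsto (bl e (r n) z₁)
      rwa [ib_bl e hrn] at this
    filter_upwards [t2.eventually h4] with w hw
    rw [bl_ib e hrn] at hw
    exact hw.1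
  have hWV : bl (e + r n • x') (s * r n) '' W ⊆ V := by
    rintro w ⟨z, hz, rfl⟩
    rw [bl_bl]
    exact hblV _ (WN (by rw [hW']; exact mem_image_of_mem _ hz))
  exact regW_of (isOpen_TB (isOpen_K1 k) e₀ ρ) (convex_TB (convex_K1 k) e₀ ρ) Vo Vc hWV L.dth
    L.inc hξd hξ hξu (hblV _ (WN hz₁W)) h4.self_of_nhds.2 t1

end Vale.Agent.P097.H686
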